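import Vale.Agent.P279.Main

namespace Vale.Agent.Results.P279.Nagata

open Vale.Agent.P279

/-- Nagata's conjecture for all `r ≥ 10`. -/
theorem result (r : ℕ) (hr : 10 ≤ r) :
    ∃ Z : ℕ → Set (Fin r → P2),
      (∀ n, IsZariskiClosedIn r (Z n) ∧ Z n ≠ distinctTuples r) ∧
      ∀ p ∈ distinctTuples r, (∀ n, p ∉ Z n) →
        ∀ d : ℕ, 1 ≤ d → ∀ F : MvPolynomial (Fin 3) ℂ, F ≠ 0 → F.IsHomogeneous d →
          ∀ m : Fin r → ℕ, (∀ i, MultGE F (p i) (m i)) →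
            ∑ i, (m i : ℝ) < (d : ℝ) * Real.sqrt r :=
  nagata r hr

end Vale.Agent.Results.P279.Nagata
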